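import Vale.Agent.P369.FD.MainStmts
import Vale.Agent.P369.H688.BS

/-!
P369 (helper210), sub-package MAIN-LOW: elementary bounds for density matrices on `Ct n D`.
-/

set_option linter.all false

namespace Vale.Agent.P369.FD

open Matrix
open Vale.Agent.P369 (Conf up down ampn g)
open Vale.Agent.P369A (Ct)
open scoped Kronecker ComplexOrder

noncomputable section

namespace H210

variable {n D : ℕ}

theorem diag_nonneg {ι : Type} [Fintype ι] {A : Matrix ι ι ℂ} (hA : A.PosSemidef) (k : ι) :
    0 ≤ (A k k).re := by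
  classical
  have := hA.diag_nonneg (i := k)
  exact (Complex.le_def.1 this).1

theorem sum_diag {ι : Type} [Fintype ι] {A : Matrix ι ι ℂ} (hA : A.trace = 1) :
    ∑ k, (A k k).re = 1 := by
  have := congrArg Complex.re hA
  simpa [Matrix.trace] using this

/-- trace against a diagonal matrix with real entries -/
theorem trace_mul_diag {ι : Type} [Fintype ι] [DecidableEq ι] (A : Matrix ι ι ℂ) (v : ι → ℝ) :
    (A * Matrix.diagonal fun k => ((v k : ℝ) : ℂ)).trace.re = ∑ k, v k * (A k k).re := by
  rw [Matrix.trace, Complex.re_sum]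
  refine Finset.sum_congr rfl fun k _ => ?_
  rw [Matrix.diag_apply, Matrix.mul_diagonal, mul_comm, Complex.re_ofReal_mul]

theorem tp_low (X : ℕ) (j : Fin n) : tp (low (n := n) X j) =
    Matrix.diagonal fun k : Ct n X =>
      (((if ∑ i, k.1 i < X then 0 else ((k.1 j : ℕ) : ℝ) + 1) : ℝ) : ℂ) := by
  unfold tp
  rw [low_eq_an, H688.tp_eq]
  congr 1
  funext k
  split_ifs <;> push_cast <;> rfl

theorem low_mul_lowH (X : ℕ) (j : Fin n) : low (n := n) X j * (low X j)ᴴ =
    Matrix.diagonal fun k : Ct n X =>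
      (((if ∑ i, k.1 i < X then ((k.1 j : ℕ) : ℝ) + 1 else 0) : ℝ) : ℂ) := by
  rw [low_eq_an, H688.an_mul_anH]
  congr 1
  funext k
  split_ifs <;> push_cast <;> rfl

theorem lowH_mul_low (X : ℕ) (j : Fin n) : (low (n := n) X j)ᴴ * low X j =
    Matrix.diagonal fun k : Ct n X => (((k.1 j : ℕ) : ℝ) : ℂ) := by
  rw [low_eq_an, H688.anH_mul_an]
  congr 1

theorem single_le_tot {X : ℕ} (k : Ct n X) (j : Fin n) : ((k.1 j : ℕ) : ℝ) ≤ tot k := by
  unfold tot
  exact_mod_cast Finset.single_le_sum (f := fun i => k.1 i) (fun i _ => Nat.zero_le _)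
    (Finset.mem_univ j)

theorem tot_nn {X : ℕ} (k : Ct n X) : 0 ≤ tot k := by
  unfold tot
  positivity

theorem tot_le {X : ℕ} (k : Ct n X) : tot k ≤ X := by
  unfold tot
  exact_mod_cast k.2

/-- Cauchy-Schwarz for a density matrix: `|Tr A a|² ≤ Tr A a†a` -/
theorem norm_trace_sq_le {ι : Type} [Fintype ι] [DecidableEq ι] {A : Matrix ι ι ℂ}
    (hA : IsDM A) (a : Matrix ι ι ℂ) :
    ‖(A * a).trace‖ ^ 2 ≤ (A * (aᴴ * a)).trace.re := by
  set m := (A * a).trace with hm
  have h1 : 0 ≤ (((a - m • 1) * A * (a - m • 1)ᴴ).trace).re := by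
    have h := (hA.1.mul_mul_conjTranspose_same (a - m • 1)).trace_nonneg
    exact (Complex.le_def.1 h).1
  have hAH : Aᴴ = A := hA.1.1
  have e : ((a - m • 1) * A * (a - m • 1)ᴴ).trace =
      (A * (aᴴ * a)).trace - star m * m - m * star m + m * star m := by
    have e1 : (a - m • (1 : Matrix ι ι ℂ))ᴴ = aᴴ - star m • 1 := by
      rw [conjTranspose_sub, conjTranspose_smul, conjTranspose_one]
    rw [e1]
    have e2 : (a - m • (1 : Matrix ι ι ℂ)) * A * (aᴴ - star m • 1) =
        a * A * aᴴ - star m • (a * A) - m • (A * aᴴ) + (m * star m) • A := by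
      rw [mul_comm m (star m)]
      simp only [sub_mul, mul_sub, smul_mul_assoc, mul_smul_comm, one_mul, mul_one, smul_sub,
        smul_smul]
      abel
    rw [e2]
    simp only [trace_add, trace_sub, trace_smul, smul_eq_mul]
    have e3 : (a * A * aᴴ).trace = (A * (aᴴ * a)).trace := by
      rw [mul_assoc, trace_mul_comm, mul_assoc]
    have e4 : (a * A).trace = m := by rw [trace_mul_comm]
    have e5 : (A * aᴴ).trace = star m := by
      rw [hm, ← trace_conjTranspose, conjTranspose_mul, hAH, trace_mul_comm]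
    rw [e3, e4, e5, hA.2, mul_one]
  rw [e] at h1
  have h2 : (star m * m).re = ‖m‖ ^ 2 := by
    have : star m * m = ((‖m‖ ^ 2 : ℝ) : ℂ) := by
      rw [Complex.star_def, mul_comm, Complex.mul_conj, Complex.normSq_eq_norm_sq]
    rw [this, Complex.ofReal_re]
  simp only [Complex.add_re, Complex.sub_re] at h1
  linarith

end H210

open H210

/-- sub-package LOW -/
theorem thm_LOW : S_LOW := by
  intro n D A hA
  have h0 := fun k => diag_nonneg hA.1 k
  have h1 := sum_diag hA.2
  refine ⟨?_, ?_, ?_, ?_, ?_, ?_⟩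
  · intro j
    rw [low_mul_lowH, trace_mul_diag]
    have : enr A + 1 = ∑ k : Ct n D, (tot k + 1) * (A k k).re := by
      unfold enr
      rw [show (1 : ℝ) = ∑ k, (A k k).re from h1.symm, ← Finset.sum_add_distrib]
      refine Finset.sum_congr rfl fun k _ => ?_
      rw [h1]
      ring
    rw [this]
    refine Finset.sum_le_sum fun k _ => mul_le_mul_of_nonneg_right ?_ (h0 k)
    have := single_le_tot k j
    have := tot_nn k
    split_ifs <;> linarith
  · intro j
    refine (norm_trace_sq_le hA (low D j)).trans ?_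
    rw [lowH_mul_low, trace_mul_diag]
    unfold enr
    exact Finset.sum_le_sum fun k _ => mul_le_mul_of_nonneg_right (single_le_tot k j) (h0 k)
  · intro j
    rw [tp_low, trace_mul_diag]
    refine Finset.sum_nonneg fun k _ => mul_nonneg ?_ (h0 k)
    split_ifs
    · exact le_rfl
    · positivity
  · intro j lam hlam
    have hl0 : 0 < lam := by linarith
    have hf : (fnum D (fun k => lam ^ k) * A).trace.re =
        ∑ k : Ct n D, lam ^ (∑ j, k.1 j) * (A k k).re := by
      rw [trace_mul_comm]
      unfold fnum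
      exact trace_mul_diag A fun k : Ct n D => lam ^ (∑ j, k.1 j)
    rw [tp_low, trace_mul_diag, hf, Finset.mul_sum]
    refine Finset.sum_le_sum fun k _ => ?_
    rw [← mul_assoc]
    refine mul_le_mul_of_nonneg_right ?_ (h0 k)
    split_ifs with hk
    · positivity
    · have hk' : ∑ i, k.1 i = D := le_antisymm k.2 (not_lt.1 hk)
      rw [hk', div_mul_cancel₀ _ (pow_pos hl0 D).ne']
      have := (single_le_tot k j).trans (tot_le k)
      linarith
  · rw [nm_low, trace_mul_comm]
    unfold fnum enr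
    exact trace_mul_diag A fun k : Ct n D => tot k
  · intro lam hlam
    have hf : (fnum D (fun k => lam ^ k) * A).trace.re =
        ∑ k : Ct n D, lam ^ (∑ j, k.1 j) * (A k k).re := by
      rw [trace_mul_comm]
      unfold fnum
      exact trace_mul_diag A fun k : Ct n D => lam ^ (∑ j, k.1 j)
    rw [hf, ← h1]
    refine Finset.sum_le_sum fun k _ => ?_
    nlinarith [h0 k, one_le_pow₀ hlam.le (n := ∑ j, k.1 j)]

end

end Vale.Agent.P369.FD
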