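import Vale.Agent.P369.H210.Low
import Vale.Agent.P369.H587.Dp

/-!
P369 (helper210), sub-package MAINZ: absorption of all polynomial factors, `S_MAIN`.
-/

set_option linter.all false

namespace Vale.Agent.P369.FD

open Matrix
open Vale.Agent.P369 (Conf up down ampn g)
open Vale.Agent.P369A (Ct)
open scoped Kronecker ComplexOrder

noncomputable section

namespace H210

theorem isDM_outp {ι ι' κ ε : Type} [Fintype ι] [DecidableEq ι] [Fintype ι'] [DecidableEq ι']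
    [Fintype κ] [DecidableEq κ] [Fintype ε] [DecidableEq ε] {W : Matrix (κ × ε) (ι × ι') ℂ}
    (hW : Wᴴ * W = 1) {A : Matrix ι ι ℂ} {B : Matrix ι' ι' ℂ} (hA : IsDM A) (hB : IsDM B) :
    IsDM (outp W A B) :=
  ⟨Vale.P369.H587.outC_posSemidef _ _ _ hA.1 hB.1, Vale.P369.H587.outC_trace _ _ _ hW hA.2 hB.2⟩

theorem poly_exp (p : ℕ) {r : ℝ} (h0 : 0 < r) (h1 : r < 1) :
    ∃ K : ℝ, 0 < K ∧ ∀ D : ℕ, ((D : ℝ) + 1) ^ p * r ^ D ≤ K := by
  have h := (tendsto_pow_const_mul_const_pow_of_abs_lt_one p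
    (by rw [abs_of_pos h0]; exact h1 : |r| < 1)).comp (Filter.tendsto_add_atTop_nat 1)
  obtain ⟨K, hK⟩ := h.bddAbove_range
  refine ⟨max K 1 / r, by positivity, fun D => ?_⟩
  have := hK ⟨D, rfl⟩
  simp only [Function.comp_apply] at this
  push_cast at this
  rw [le_div_iff₀ h0, mul_assoc, ← pow_succ]
  exact this.trans (le_max_left _ _)

theorem dform_nonneg {ι : Type} [Fintype ι] [DecidableEq ι] {C : Matrix ι ι ℂ} (hC : C.PosDef)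
    (Z : Matrix ι ι ℂ) : 0 ≤ dform (fun x y => 1 / (x + y)) hC.isHermitian Z := by
  unfold dform
  refine Finset.sum_nonneg fun k _ => Finset.sum_nonneg fun l _ => mul_nonneg ?_ (sq_nonneg _)
  have hk := hC.eigenvalues_pos k
  have hl := hC.eigenvalues_pos l
  positivity

theorem bb_pos {N : ℝ} (hN : 0 < N) : 0 < bb N := by
  unfold bb
  have : 0 < 1 / N := by positivity
  exact Real.log_pos (by linarith)

theorem enr_le {n X : ℕ} {A : Matrix (Ct n X) (Ct n X) ℂ} (hA : IsDM A) : enr A ≤ X := by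
  have h0 := fun k => diag_nonneg hA.1 k
  have h1 := sum_diag hA.2
  unfold enr
  calc ∑ k, tot k * (A k k).re ≤ ∑ k, (X : ℝ) * (A k k).re :=
        Finset.sum_le_sum fun k _ => mul_le_mul_of_nonneg_right (tot_le k) (h0 k)
    _ = X := by rw [← Finset.mul_sum, h1, mul_one]

theorem sqrt_le_self' {x : ℝ} (hx : 1 ≤ x) : Real.sqrt x ≤ x := by
  rw [Real.sqrt_le_left (by linarith)]
  nlinarith

/-- rates -/
theorem rates {lam : ℝ} (hlam : 1 < lam) : ∃ σ ρ₀ ρ : ℝ, 0 < σ ∧ σ < 1 ∧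
    σ ^ 2 = (Real.sqrt lam)⁻¹ ∧ 0 < ρ₀ ∧ σ ≤ ρ₀ ∧ Real.exp (-1) ≤ ρ₀ ∧ 0 < ρ ∧ ρ < 1 ∧
    ρ₀ = ρ * ρ := by
  have hs1 : 1 < Real.sqrt lam := by
    rw [Real.lt_sqrt zero_le_one]; linarith
  have hs2 : 1 < Real.sqrt (Real.sqrt lam) := by
    rw [Real.lt_sqrt zero_le_one]; linarith
  have hσ0 : 0 < (Real.sqrt (Real.sqrt lam))⁻¹ := by positivity
  have hσ1 : (Real.sqrt (Real.sqrt lam))⁻¹ < 1 := inv_lt_one_of_one_lt₀ hs2
  have hρ0 : 0 < max (Real.sqrt (Real.sqrt lam))⁻¹ (Real.exp (-1)) := lt_max_of_lt_left hσ0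
  have hρ1 : max (Real.sqrt (Real.sqrt lam))⁻¹ (Real.exp (-1)) < 1 :=
    max_lt hσ1 (by rw [Real.exp_lt_one_iff]; norm_num)
  refine ⟨(Real.sqrt (Real.sqrt lam))⁻¹, max (Real.sqrt (Real.sqrt lam))⁻¹ (Real.exp (-1)),
    Real.sqrt (max (Real.sqrt (Real.sqrt lam))⁻¹ (Real.exp (-1))), hσ0, hσ1, ?_, hρ0,
    le_max_left _ _, le_max_right _ _, Real.sqrt_pos.2 hρ0, ?_, ?_⟩
  · rw [inv_pow, Real.sq_sqrt (Real.sqrt_nonneg _)]
  · rw [Real.sqrt_lt' one_pos]; linarith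
  · rw [Real.mul_self_sqrt hρ0.le]

theorem tail_le {n D : ℕ} {lam K0 x s m : ℝ} (hlam : 1 < lam)
    (hx : x ≤ ((D : ℝ) + 1) / lam ^ D * m) (hm : wD lam D * m ≤ K0) (hs : wD lam D = s ^ 2) :
    x ≤ ((D : ℝ) + 1) * K0 * s ^ 2 := by
  have hlam0 : 0 < lam := by linarith
  refine hx.trans ?_
  have h1 : wD lam D * wD lam D * lam ^ D = 1 := by
    unfold wD
    have : lam ^ D = Real.sqrt lam ^ D * Real.sqrt lam ^ D := by
      rw [← mul_pow, Real.mul_self_sqrt hlam0.le]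
    rw [this]
    have h2 : Real.sqrt lam ^ D ≠ 0 := by positivity
    field_simp
  have hlD0 : 0 < lam ^ D := pow_pos hlam0 D
  have h3 : ((D : ℝ) + 1) / lam ^ D = ((D : ℝ) + 1) * (wD lam D * wD lam D) := by
    rw [div_eq_iff hlD0.ne', mul_assoc, h1, mul_one]
  have hw0 : 0 ≤ wD lam D := by unfold wD; positivity
  rw [h3]
  calc ((D : ℝ) + 1) * (wD lam D * wD lam D) * m =
        ((D : ℝ) + 1) * wD lam D * (wD lam D * m) := by ring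
    _ ≤ ((D : ℝ) + 1) * wD lam D * K0 := mul_le_mul_of_nonneg_left hm (by positivity)
    _ = ((D : ℝ) + 1) * K0 * s ^ 2 := by rw [hs]; ring

theorem sqrt_tail {q K0 s c : ℝ} (hq : 1 ≤ q) (hs : 0 ≤ s) (hc : 0 ≤ c) (hK : 0 ≤ K0) :
    Real.sqrt (c * (q * K0 * s ^ 2)) ≤ Real.sqrt (c * K0) * q * s := by
  have hq0 : 0 ≤ q := by linarith
  have e : c * (q * K0 * s ^ 2) = (c * K0) * (q * s ^ 2) := by ring
  rw [e, Real.sqrt_mul (by positivity), Real.sqrt_mul hq0, Real.sqrt_sq hs, ← mul_assoc]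
  exact mul_le_mul_of_nonneg_right
    (mul_le_mul_of_nonneg_left (sqrt_le_self' hq) (Real.sqrt_nonneg _)) hs

theorem t34 {n : ℕ} {N q b K0 s : ℝ} {u v : Fin n → ℝ} (hN : 0 < N) (hq : 1 ≤ q) (hb : 0 < b)
    (hK : 0 < K0) (hs : 0 ≤ s) (hu : ∀ j, u j ≤ K0 + 1) (hv : ∀ j, v j ≤ q * K0 * s ^ 2) :
    N * q / b * ∑ j, Real.sqrt (u j) * Real.sqrt (v j) ≤
      N * (Real.sqrt (K0 + 1) * Real.sqrt K0 / b * n) * (q ^ 2 * s) := by
  have h1 : ∑ j, Real.sqrt (u j) * Real.sqrt (v j) ≤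
      ∑ j : Fin n, Real.sqrt (K0 + 1) * (Real.sqrt K0 * q * s) := by
    refine Finset.sum_le_sum fun j _ => mul_le_mul (Real.sqrt_le_sqrt (hu j)) ?_
      (Real.sqrt_nonneg _) (Real.sqrt_nonneg _)
    have := sqrt_tail hq hs zero_le_one hK.le
    rw [one_mul, one_mul] at this
    exact (Real.sqrt_le_sqrt (hv j)).trans this
  rw [Finset.sum_const, Finset.card_univ, Fintype.card_fin, nsmul_eq_mul] at h1
  have hq0 : 0 ≤ q := by linarith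
  calc _ ≤ N * q / b * (n * (Real.sqrt (K0 + 1) * (Real.sqrt K0 * q * s))) :=
        mul_le_mul_of_nonneg_left h1 (by positivity)
    _ = _ := by ring

theorem t5 {n : ℕ} {q K0 s h a2 a3 : ℝ} {u v : Fin n → ℝ} (hq : 1 ≤ q) (hK : 0 < K0)
    (hs : 0 ≤ s) (hh : h ≤ a2 * q ^ 2) (ha2 : 0 ≤ a2) (ha3 : 0 ≤ a3)
    (hu : ∀ j, u j ≤ q * K0 * s ^ 2) (hv : ∀ j, v j ≤ q * K0 * s ^ 2) :
    h * a3 * ∑ j, Real.sqrt (u j + v j) ≤
      a2 * a3 * (n * Real.sqrt (2 * K0)) * (q ^ 3 * s) := by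
  have h1 : ∑ j, Real.sqrt (u j + v j) ≤ ∑ j : Fin n, Real.sqrt (2 * K0) * q * s := by
    refine Finset.sum_le_sum fun j _ => (Real.sqrt_le_sqrt ?_).trans
      (sqrt_tail hq hs (by norm_num) hK.le)
    have := hu j
    have := hv j
    linarith
  rw [Finset.sum_const, Finset.card_univ, Fintype.card_fin, nsmul_eq_mul] at h1
  have hq0 : 0 ≤ q := by linarith
  calc _ ≤ (a2 * q ^ 2) * a3 * (n * (Real.sqrt (2 * K0) * q * s)) :=
        mul_le_mul (mul_le_mul_of_nonneg_right hh ha3) h1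
          (Finset.sum_nonneg fun j _ => Real.sqrt_nonneg _) (by positivity)
    _ = _ := by ring

theorem t6 {n p : ℕ} {q e r h a2 cd X : ℝ} {u : Fin n → ℝ} (hq : 1 ≤ q)
    (hh : h ≤ a2 * q ^ 2) (hh0 : 0 ≤ h) (ha2 : 0 ≤ a2) (he : e ≤ r) (hr : 0 ≤ r)
    (hcd : cd ≤ 2 ^ n * q ^ n) (hX0 : 0 ≤ X) (hX : X ≤ 2 * q)
    (hu : ∀ j, |u j| ≤ cd * (X * h)) :
    e * |∑ j, u j| ≤ (n * 2 ^ n * 2 * a2) * (q ^ (n + 3) * r) := by
  have hq0 : 0 ≤ q := by linarith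
  have hs : |∑ j, u j| ≤ ∑ j : Fin n, (2 ^ n * q ^ n) * ((2 * q) * (a2 * q ^ 2)) := by
    refine (Finset.abs_sum_le_sum_abs _ _).trans (Finset.sum_le_sum fun j _ => ?_)
    exact (hu j).trans (mul_le_mul hcd (mul_le_mul hX hh hh0 (by positivity))
      (by positivity) (by positivity))
  rw [Finset.sum_const, Finset.card_univ, Fintype.card_fin, nsmul_eq_mul] at hs
  calc _ ≤ r * (n * ((2 ^ n * q ^ n) * ((2 * q) * (a2 * q ^ 2)))) :=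
        mul_le_mul he hs (abs_nonneg _) hr
    _ = _ := by ring

theorem t7 {n : ℕ} {q e r cd : ℝ} {u : Fin n → ℝ} (hq : 1 ≤ q) (he : e ≤ r) (hr : 0 ≤ r)
    (hcd0 : 0 ≤ cd) (hcd : cd ≤ 2 ^ n * q ^ n) (hu0 : ∀ j, 0 ≤ u j) (hu : ∀ j, u j ≤ 2 * q) :
    e * cd * ∑ j, u j ≤ 2 ^ n * n * 2 * (q ^ (n + 1) * r) := by
  have hq0 : 0 ≤ q := by linarith
  have hs : ∑ j, u j ≤ ∑ j : Fin n, 2 * q := Finset.sum_le_sum fun j _ => hu j
  rw [Finset.sum_const, Finset.card_univ, Fintype.card_fin, nsmul_eq_mul] at hs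
  calc _ ≤ r * (2 ^ n * q ^ n) * (n * (2 * q)) :=
        mul_le_mul (mul_le_mul he hcd hcd0 hr) hs
          (Finset.sum_nonneg fun j _ => hu0 j) (by positivity)
    _ = _ := by ring

/-- extraction of the three bounds from the main inequality -/
theorem extract {n : ℕ} {δ η R : ℝ} {d a b : Fin n → ℝ} (hδ : 0 < δ) (hη : 0 < η)
    (hη1 : 0 < 1 - η) (hd : ∀ j, 0 ≤ d j) (ha : ∀ j, 0 ≤ a j) (hb : ∀ j, 0 ≤ b j)
    (h : δ * ∑ j, d j + (1 + δ) * δ * ∑ j, (η * a j + (1 - η) * b j) ≤ (1 + δ) * R) (j : Fin n) :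
    a j ≤ R * (1 / (δ * η)) ∧ b j ≤ R * (1 / (δ * (1 - η))) ∧ d j ≤ R * ((1 + δ) / δ) := by
  have hab : ∀ j, 0 ≤ η * a j + (1 - η) * b j := fun j =>
    add_nonneg (mul_nonneg hη.le (ha j)) (mul_nonneg hη1.le (hb j))
  have s1 := Finset.single_le_sum (fun j _ => hab j) (Finset.mem_univ j)
  have s2 := Finset.single_le_sum (fun j _ => hd j) (Finset.mem_univ j)
  have s3 : 0 ≤ ∑ j, d j := Finset.sum_nonneg fun j _ => hd j
  have s4 : 0 ≤ ∑ j, (η * a j + (1 - η) * b j) := Finset.sum_nonneg fun j _ => hab j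
  have h1δ : 0 < 1 + δ := by linarith
  have k1 : (1 + δ) * (δ * (η * a j + (1 - η) * b j)) ≤ (1 + δ) * R := by
    have := mul_le_mul_of_nonneg_left s1 (by positivity : 0 ≤ (1 + δ) * δ)
    have := mul_nonneg hδ.le s3
    linarith
  have k2 := le_of_mul_le_mul_left k1 h1δ
  have k3 : δ * d j ≤ (1 + δ) * R := by
    have := mul_le_mul_of_nonneg_left s2 hδ.le
    have : 0 ≤ (1 + δ) * δ * ∑ j, (η * a j + (1 - η) * b j) := by positivity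
    linarith
  have k4 : 0 ≤ δ * (η * a j) := mul_nonneg hδ.le (mul_nonneg hη.le (ha j))
  have k5 : 0 ≤ δ * ((1 - η) * b j) := mul_nonneg hδ.le (mul_nonneg hη1.le (hb j))
  refine ⟨?_, ?_, ?_⟩
  · rw [mul_one_div, le_div_iff₀ (by positivity)]
    linarith
  · rw [mul_one_div, le_div_iff₀ (by positivity)]
    linarith
  · rw [← mul_div_assoc, le_div_iff₀ hδ]
    linarith

/-- the seven error terms together, real numbers only -/
theorem total {n D : ℕ} {CA CB NA NB K0 b M δ h σ ρ₀ w e cd X s1 s2 : ℝ}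
    {uA vA uB vB z y : Fin n → ℝ}
    (hD : 1 ≤ D) (hCA : 0 ≤ CA) (hCB : 0 ≤ CB) (hNA : 0 < NA) (hNB : 0 < NB) (hK0 : 0 < K0)
    (hb : 0 < b) (hM : 0 < M) (hw : w = (σ ^ D) ^ 2) (hσ0 : 0 < σ) (hσ1 : σ < 1)
    (hσρ : σ ≤ ρ₀) (he0 : 0 ≤ e) (heρ : e ≤ ρ₀ ^ D)
    (hh : h = X * (1 + 2 * ((D : ℝ) + 1) / b)) (hX0 : 0 ≤ X) (hX : X ≤ 2 * ((D : ℝ) + 1))
    (hcd0 : 0 ≤ cd) (hcd : cd ≤ 2 ^ n * ((D : ℝ) + 1) ^ n)
    (hs1 : s1 ≤ CA) (hs2 : s2 ≤ CB)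
    (huA : ∀ j, uA j ≤ K0 + 1) (hvA : ∀ j, vA j ≤ ((D : ℝ) + 1) * K0 * (σ ^ D) ^ 2)
    (huB : ∀ j, uB j ≤ K0 + 1) (hvB : ∀ j, vB j ≤ ((D : ℝ) + 1) * K0 * (σ ^ D) ^ 2)
    (hz : ∀ j, |z j| ≤ cd * (X * h)) (hy0 : ∀ j, 0 ≤ y j) (hy : ∀ j, y j ≤ 2 * ((D : ℝ) + 1)) :
    w * s1 + w * s2 + NA * ((D : ℝ) + 1) / b * ∑ j, Real.sqrt (uA j) * Real.sqrt (vA j) +
        NB * ((D : ℝ) + 1) / b * ∑ j, Real.sqrt (uB j) * Real.sqrt (vB j) +
        h * (M + |NB - NA|) * ∑ j, Real.sqrt (vA j + vB j) + e * |∑ j, z j| +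
        e * cd * ∑ j, y j ≤
      (CA + CB + NA * (Real.sqrt (K0 + 1) * Real.sqrt K0 / b * n) +
        NB * (Real.sqrt (K0 + 1) * Real.sqrt K0 / b * n) +
        2 * (1 + 2 / b) * (M + |NB - NA|) * (n * Real.sqrt (2 * K0)) +
        (n * 2 ^ n * 2 * (2 * (1 + 2 / b))) + 2 ^ n * n * 2) *
      (((D : ℝ) + 1) ^ (n + 3) * ρ₀ ^ D) := by
  obtain ⟨q, hq⟩ : ∃ q : ℝ, q = (D : ℝ) + 1 := ⟨_, rfl⟩
  rw [← hq] at hh hX hcd hvA hvB hy ⊢
  have hD1 : (1 : ℝ) ≤ D := by exact_mod_cast hD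
  have hq1 : 1 ≤ q := by rw [hq]; linarith
  have hq0 : 0 ≤ q := by linarith
  have hs0 : 0 < σ ^ D := pow_pos hσ0 D
  have hs1' : σ ^ D ≤ 1 := pow_le_one₀ hσ0.le hσ1.le
  have hsρ : σ ^ D ≤ ρ₀ ^ D := pow_le_pow_left₀ hσ0.le hσρ D
  have hwρ : w ≤ ρ₀ ^ D := by rw [hw]; nlinarith
  have hw0 : 0 ≤ w := by rw [hw]; positivity
  have hρ0 : 0 < ρ₀ ^ D := hs0.trans_le hsρ
  have ha2 : 0 ≤ 2 * (1 + 2 / b) := by positivity
  have ha3 : 0 ≤ M + |NB - NA| := by positivity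
  have hh0 : 0 ≤ h := by rw [hh]; positivity
  have hhq : h ≤ 2 * (1 + 2 / b) * q ^ 2 := by
    rw [hh]
    have e : 1 + 2 * q / b ≤ q * (1 + 2 / b) := by
      have : q * (1 + 2 / b) = q + 2 * q / b := by ring
      rw [this]; linarith
    calc X * (1 + 2 * q / b) ≤ (2 * q) * (q * (1 + 2 / b)) :=
          mul_le_mul hX e (by positivity) (by positivity)
      _ = 2 * (1 + 2 / b) * q ^ 2 := by ring
  have hqp : ∀ k : ℕ, k ≤ n + 3 → q ^ k ≤ q ^ (n + 3) := fun k hk => pow_le_pow_right₀ hq1 hk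
  have hqp0 : 1 ≤ q ^ (n + 3) := one_le_pow₀ hq1
  obtain ⟨P, hP⟩ : ∃ P, P = q ^ (n + 3) * ρ₀ ^ D := ⟨_, rfl⟩
  have m1 : w ≤ P := by rw [hP]; nlinarith
  have m2 : q ^ 2 * σ ^ D ≤ P := by
    rw [hP]
    exact mul_le_mul (hqp 2 (by omega)) hsρ hs0.le (by positivity)
  have m3 : q ^ 3 * σ ^ D ≤ P := by
    rw [hP]
    exact mul_le_mul (hqp 3 (by omega)) hsρ hs0.le (by positivity)
  have m4 : q ^ (n + 1) * ρ₀ ^ D ≤ P := by
    rw [hP]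
    exact mul_le_mul (hqp (n + 1) (by omega)) le_rfl hρ0.le (by positivity)
  have r1 : w * s1 ≤ CA * P :=
    calc w * s1 ≤ w * CA := mul_le_mul_of_nonneg_left hs1 hw0
      _ ≤ P * CA := mul_le_mul_of_nonneg_right m1 hCA
      _ = _ := mul_comm _ _
  have r2 : w * s2 ≤ CB * P :=
    calc w * s2 ≤ w * CB := mul_le_mul_of_nonneg_left hs2 hw0
      _ ≤ P * CB := mul_le_mul_of_nonneg_right m1 hCB
      _ = _ := mul_comm _ _
  have r3 := (t34 hNA hq1 hb hK0 hs0.le huA hvA).trans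
    (mul_le_mul_of_nonneg_left m2 (by positivity))
  have r4 := (t34 hNB hq1 hb hK0 hs0.le huB hvB).trans
    (mul_le_mul_of_nonneg_left m2 (by positivity))
  have r5 := (t5 hq1 hK0 hs0.le hhq ha2 ha3 hvA hvB).trans
    (mul_le_mul_of_nonneg_left m3 (by positivity))
  have r6 := t6 (p := 0) hq1 hhq hh0 ha2 heρ hρ0.le hcd hX0 hX hz
  have r7 := (t7 hq1 heρ hρ0.le hcd0 hcd hy0 hy).trans
    (mul_le_mul_of_nonneg_left m4 (by positivity))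
  rw [← hP] at r6 ⊢
  linarith

end H210

end

end Vale.Agent.P369.FD
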