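import Vale.Agent.P369.H210.MainZ

/-!
P369 (helper210), sub-package MAINZ: `S_MAIN` from its pieces.
-/

set_option linter.all false

namespace Vale.Agent.P369.FD

open Matrix
open Vale.Agent.P369 (Conf up down ampn g)
open Vale.Agent.P369A (Ct)
open scoped Kronecker ComplexOrder

noncomputable section

open H210

namespace H210

theorem le_K {K0 R r1 r2 r3 x : ℝ} (hK0 : 0 ≤ K0) (hR : 0 ≤ R) (h1 : 0 ≤ r1) (h2 : 0 ≤ r2)
    (h3 : 0 ≤ r3) (i : Fin 3) :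
    R * (![r1, r2, r3] i) ≤ K0 + R * (r1 + r2 + r3) := by
  fin_cases i <;> simp <;> nlinarith [mul_nonneg hR h1, mul_nonneg hR h2, mul_nonneg hR h3]

/-- the estimate at a fixed cutoff `D` -/
theorem step {n : ℕ} {η NA NB δ lam CA CB K0 M σ ρ₀ ρ Kp : ℝ} (hη0 : 0 < η) (hη1 : η < 1)
    (hNA : 0 < NA) (hNB : 0 < NB) (hδ : 0 < δ) (hlam : 1 < lam) (hMdef : η * NA + (1 - η) * NB = M)
    (hM : 0 < M) (hCA0 : 0 ≤ CA) (hCB0 : 0 ≤ CB) (hK0 : 0 < K0)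
    (hLG : S_LG) (hHB : S_HB) (hCARD : S_CARD) (hLOW : S_LOW)
    (hσ0 : 0 < σ) (hσ1 : σ < 1) (hσ2 : σ ^ 2 = (Real.sqrt lam)⁻¹) (hρ0 : 0 < ρ₀) (hσρ : σ ≤ ρ₀)
    (heρ : Real.exp (-1) ≤ ρ₀) (hρpos : 0 < ρ) (hρsq : ρ₀ = ρ * ρ)
    (hKp0 : 0 < Kp) (hKp : ∀ D : ℕ, ((D : ℝ) + 1) ^ (n + 3) * ρ ^ D ≤ Kp) {D : ℕ} (hD : 1 ≤ D)
    {A B : Matrix (Ct n D) (Ct n D) ℂ} {C C₀ : Matrix (Ct n (2 * D)) (Ct n (2 * D)) ℂ}
    (hAD : IsDM A) (hBD : IsDM B) (hC : C.PosDef) (hC0 : IsDM C₀)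
    (hCdef : C = C₀ + ((eD D : ℝ) : ℂ) • 1)
    (hCA : (fnum D (fun k => lam ^ k) * lind NA (low D) A).trace.re ≤ CA)
    (hCB : (fnum D (fun k => lam ^ k) * lind NB (low D) B).trace.re ≤ CB)
    (hEA : enr A ≤ K0) (hEB : enr B ≤ K0)
    (hmA : wD lam D * (fnum D (fun k => lam ^ k) * A).trace.re ≤ K0)
    (hmB : wD lam D * (fnum D (fun k => lam ^ k) * B).trace.re ≤ K0)
    (hraw : ∀ (L h : ℝ), 0 ≤ L → 0 ≤ h →
      (((L ^ 2 : ℝ) : ℂ) • (1 : Matrix (Ct n (2 * D)) (Ct n (2 * D)) ℂ) - Lg C * Lg C).PosSemidef →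
      (∀ j, (((h ^ 2 : ℝ) : ℂ) • (1 : Matrix (Ct n (2 * D)) (Ct n (2 * D)) ℂ) -
        ladH (bb M) (low (2 * D) j) C * (ladH (bb M) (low (2 * D) j) C)ᴴ).PosSemidef) →
      δ * ∑ j, dform (fun x y => 1 / (x + y)) hC.isHermitian
          (Xl M (low (2 * D) j) C - ((C₀ * low (2 * D) j).trace / C.trace) • C) +
        (1 + δ) * δ * ∑ j, (η * ‖(A * low D j).trace‖ ^ 2 + (1 - η) * ‖(B * low D j).trace‖ ^ 2) ≤
      (1 + δ) * (wD lam D * (fnum D (fun k => lam ^ k) * lind NA (low D) A).trace.re +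
        wD lam D * (fnum D (fun k => lam ^ k) * lind NB (low D) B).trace.re +
        NA * L / bb M * ∑ j, Real.sqrt (A * (low D j * (low D j)ᴴ)).trace.re *
          Real.sqrt (A * tp (low D j)).trace.re +
        NB * L / bb M * ∑ j, Real.sqrt (B * (low D j * (low D j)ᴴ)).trace.re *
          Real.sqrt (B * tp (low D j)).trace.re +
        h * (M + |NB - NA|) *
          ∑ j, Real.sqrt ((A * tp (low D j)).trace.re + (B * tp (low D j)).trace.re) +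
        eD D * |∑ j, ((low (2 * D) j)ᴴ * ladH (bb M) (low (2 * D) j) C).trace.re| +
        eD D * (Fintype.card (Ct n (2 * D)) : ℝ) *
          ∑ j, ‖(C₀ * low (2 * D) j).trace‖ ^ 2)) :
    δ * ∑ j, dform (fun x y => 1 / (x + y)) hC.isHermitian
          (Xl M (low (2 * D) j) C - ((C₀ * low (2 * D) j).trace / C.trace) • C) +
        (1 + δ) * δ * ∑ j, (η * ‖(A * low D j).trace‖ ^ 2 + (1 - η) * ‖(B * low D j).trace‖ ^ 2) ≤
      (1 + δ) * ((CA + CB + NA * (Real.sqrt (K0 + 1) * Real.sqrt K0 / bb M * n) +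
        NB * (Real.sqrt (K0 + 1) * Real.sqrt K0 / bb M * n) +
        2 * (1 + 2 / bb M) * (M + |NB - NA|) * (n * Real.sqrt (2 * K0)) +
        (n * 2 ^ n * 2 * (2 * (1 + 2 / bb M))) + 2 ^ n * n * 2) * Kp * ρ ^ D) := by
  have hbM := bb_pos hM
  have hlam0 : 0 < lam := by linarith
  have hD1 : (1 : ℝ) ≤ D := by exact_mod_cast hD
  obtain ⟨-, hL⟩ := hLG _ D _ C hC0 hCdef
  obtain ⟨h, hh⟩ : ∃ h : ℝ, h = Real.sqrt ((2 * D : ℕ) : ℝ) * (1 + 2 * ((D : ℝ) + 1) / bb M) :=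
    ⟨_, rfl⟩
  have hq0 : 0 ≤ (D : ℝ) + 1 := by linarith
  have hHB' := fun j => hHB n (2 * D) j C ((D : ℝ) + 1) (bb M) h hC hq0 hbM hL hh
  have hh0 : 0 ≤ h := by rw [hh]; positivity
  have hR := hraw ((D : ℝ) + 1) h hq0 hh0 hL fun j => (hHB' j).1
  refine hR.trans (mul_le_mul_of_nonneg_left ?_ (by linarith))
  have hw : wD lam D = (σ ^ D) ^ 2 := by
    unfold wD
    rw [← pow_mul, mul_comm D 2, pow_mul, hσ2, inv_pow]
  have heD : eD D ≤ ρ₀ ^ D := by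
    unfold eD
    have : Real.exp (-(D : ℝ)) = Real.exp (-1) ^ D := by
      rw [← Real.exp_nat_mul]; congr 1; ring
    rw [this]
    exact pow_le_pow_left₀ (Real.exp_pos _).le heρ D
  have heD0 : 0 ≤ eD D := (Real.exp_pos _).le
  have hX : Real.sqrt ((2 * D : ℕ) : ℝ) ≤ 2 * ((D : ℝ) + 1) := by
    refine (sqrt_le_self' ?_).trans ?_
    · push_cast; linarith
    · push_cast; linarith
  have hcard : (Fintype.card (Ct n (2 * D)) : ℝ) ≤ 2 ^ n * ((D : ℝ) + 1) ^ n := by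
    refine (hCARD n (2 * D)).trans ?_
    rw [← mul_pow]
    refine pow_le_pow_left₀ (by positivity) ?_ n
    push_cast
    linarith
  have tA := fun j => tail_le (n := n) hlam ((hLOW n D A hAD).2.2.2.1 j lam hlam) hmA hw
  have tB := fun j => tail_le (n := n) hlam ((hLOW n D B hBD).2.2.2.1 j lam hlam) hmB hw
  have hy : ∀ j, ‖(C₀ * low (2 * D) j).trace‖ ^ 2 ≤ 2 * ((D : ℝ) + 1) := by
    intro j
    refine ((hLOW n (2 * D) _ hC0).2.1 j).trans ((enr_le hC0).trans ?_)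
    push_cast
    linarith
  have key := total (n := n) (D := D) (z := fun j =>
      ((low (2 * D) j)ᴴ * ladH (bb M) (low (2 * D) j) C).trace.re)
    (y := fun j => ‖(C₀ * low (2 * D) j).trace‖ ^ 2)
    (uA := fun j => (A * (low D j * (low D j)ᴴ)).trace.re)
    (vA := fun j => (A * tp (low D j)).trace.re)
    (uB := fun j => (B * (low D j * (low D j)ᴴ)).trace.re)
    (vB := fun j => (B * tp (low D j)).trace.re)
    (δ := δ) hD hCA0 hCB0 hNA hNB hK0 hbM hM hw hσ0 hσ1 hσρ heD0 heD hh (Real.sqrt_nonneg _) hX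
    (Nat.cast_nonneg _) hcard hCA hCB
    (fun j => ((hLOW n D A hAD).1 j).trans (by linarith)) tA
    (fun j => ((hLOW n D B hBD).1 j).trans (by linarith)) tB
    (fun j => (hHB' j).2) (fun j => sq_nonneg _) hy
  refine key.trans ?_
  rw [mul_assoc _ Kp]
  refine mul_le_mul_of_nonneg_left ?_ (by positivity)
  rw [hρsq, mul_pow, ← mul_assoc]
  exact mul_le_mul_of_nonneg_right (hKp D) (pow_pos hρpos D).le

end H210

theorem thm_MAINZ (hBS : S_BS) (hRAW : S_RAW) (hLG : S_LG) (hHB : S_HB) (hCARD : S_CARD)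
    (hLOW : S_LOW) (hPEN : S_PEN) (hEB : S_EB) : S_MAIN := by
  intro n η NA NB δ lam hη0 hη1 hNA hNB hδ hlam hlA hlB
  obtain ⟨CA, hCA0, hCA⟩ := hPEN n NA lam hNA hlam hlA
  obtain ⟨CB, hCB0, hCB⟩ := hPEN n NB lam hNB hlam hlB
  obtain ⟨K0, hK0, hEB⟩ := hEB n η NA NB δ lam hη0 hη1 hNA hNB hδ hlam
  have hη1' : 0 < 1 - η := by linarith
  obtain ⟨M, hMdef⟩ : ∃ M, η * NA + (1 - η) * NB = M := ⟨_, rfl⟩
  have hM : 0 < M := by rw [← hMdef]; positivity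
  have hbM := bb_pos hM
  obtain ⟨σ, ρ₀, ρ, hσ0, hσ1, hσ2, hρ0, hσρ, heρ, hρpos, hρlt, hρsq⟩ := rates hlam
  obtain ⟨Kp, hKp0, hKp⟩ := poly_exp (n + 3) hρpos hρlt
  obtain ⟨KR, hKR⟩ : ∃ KR, KR = (CA + CB + NA * (Real.sqrt (K0 + 1) * Real.sqrt K0 / bb M * n) +
        NB * (Real.sqrt (K0 + 1) * Real.sqrt K0 / bb M * n) +
        2 * (1 + 2 / bb M) * (M + |NB - NA|) * (n * Real.sqrt (2 * K0)) +
        (n * 2 ^ n * 2 * (2 * (1 + 2 / bb M))) + 2 ^ n * n * 2) * Kp := ⟨_, rfl⟩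
  have hKR0 : 0 ≤ KR := by rw [hKR]; positivity
  have hb1 : 0 ≤ 1 / (δ * η) := by positivity
  have hb2 : 0 ≤ 1 / (δ * (1 - η)) := by positivity
  have hb3 : 0 ≤ (1 + δ) / δ := by positivity
  obtain ⟨K, hKdef⟩ : ∃ K, K = K0 + KR * (1 / (δ * η) + 1 / (δ * (1 - η)) + (1 + δ) / δ) :=
    ⟨_, rfl⟩
  have hK1 : K0 ≤ K := by
    rw [hKdef]
    have : 0 ≤ KR * (1 / (δ * η) + 1 / (δ * (1 - η)) + (1 + δ) / δ) := by positivity
    linarith
  have hKpos : 0 < K := hK0.trans_le hK1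
  have hfin := fun i => le_K (x := 0) hK0.le hKR0 hb1 hb2 hb3 i
  rw [← hKdef] at hfin
  refine ⟨K, ρ, hKpos, hρpos, hρlt, fun D hD => ?_⟩
  obtain ⟨A, B, C, hA, hB, hC, hAt, hBt, hCdef, hmin, hraw⟩ :=
    hRAW n η NA NB δ lam hη0 hη1 hNA hNB hδ hlam D
  have hAD : IsDM A := ⟨hA.posSemidef, hAt⟩
  have hBD : IsDM B := ⟨hB.posSemidef, hBt⟩
  have hC0 : IsDM (outp (bsW n η D) A B) := isDM_outp (hBS n η hη0.le hη1.le D).iso hAD hBD
  obtain ⟨hEA, hEB', hmA, hmB⟩ := hEB D hD A B hAD hBD hmin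
  rw [hMdef] at hraw
  have hmain := step hη0 hη1 hNA hNB hδ hlam hMdef hM hCA0 hCB0 hK0 hLG hHB hCARD hLOW hσ0 hσ1 hσ2
    hρ0 hσρ heρ hρpos hρsq hKp0 hKp hD hAD hBD hC hC0 hCdef (hCA D A hAD) (hCB D B hBD) hEA hEB'
    hmA hmB hraw
  rw [← hKR] at hmain
  have hρD : 0 ≤ ρ ^ D := (pow_pos hρpos D).le
  have hex := fun j => extract hδ hη0 hη1' (fun j => dform_nonneg hC
      (Xl M (low (2 * D) j) C - ((outp (bsW n η D) A B * low (2 * D) j).trace / C.trace) • C))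
    (fun j => sq_nonneg ‖(A * low D j).trace‖) (fun j => sq_nonneg ‖(B * low D j).trace‖) hmain j
  refine ⟨A, B, C, hA, hB, hC, hAt, hBt, hCdef, hmin, hEA.trans hK1, hEB'.trans hK1, ?_, ?_, ?_⟩
  · intro j
    refine (hex j).1.trans ?_
    have := mul_le_mul_of_nonneg_right (hfin 0) hρD
    calc _ = KR * (1 / (δ * η)) * ρ ^ D := by ring
      _ ≤ _ := this
  · intro j
    refine (hex j).2.1.trans ?_
    have := mul_le_mul_of_nonneg_right (hfin 1) hρD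
    calc _ = KR * (1 / (δ * (1 - η))) * ρ ^ D := by ring
      _ ≤ _ := this
  · intro j
    rw [hMdef]
    refine (hex j).2.2.trans ?_
    have := mul_le_mul_of_nonneg_right (hfin 2) hρD
    calc _ = KR * ((1 + δ) / δ) * ρ ^ D := by ring
      _ ≤ _ := this

end

end Vale.Agent.P369.FD
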